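import Mathlib
import Vale.Agent.Lib.P137.Defs
import Vale.Agent.Lib.P137.MainBD

namespace Vale.Agent.Results.P137.BlockDecreasing

open MeasureTheory
open scoped ENNReal NNReal
open Vale.Agent.Lib.P137

/-- `f` is block-decreasing on `ℝ^d`: `f y ≤ f x` whenever `|x i| ≤ |y i|` for every
coordinate `i`. Equivalently, `f` is invariant under coordinate sign changes and nonincreasing
in each positive coordinate. -/
def IsBlockDecreasing {d : ℕ} (f : EuclideanSpace ℝ (Fin d) → ℝ) : Prop :=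
  ∀ x y : EuclideanSpace ℝ (Fin d), (∀ i, |x i| ≤ |y i|) → f y ≤ f x

/-- The `L¹` norm of the gradient of `g` on `ℝ^d`: the Lebesgue integral of the norm of the
Fréchet derivative of `g` (which is `0` by convention where `g` is not differentiable). -/
noncomputable def gradL1 {d : ℕ} (g : EuclideanSpace ℝ (Fin d) → ℝ) : ℝ≥0∞ :=
  ∫⁻ x, ‖fderiv ℝ g x‖ₑ

/-- Endpoint gradient bound for the centered Hardy-Littlewood maximal operator on
block-decreasing inputs, in every dimension `d ≥ 1`.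

Let `f` be a `K`-Lipschitz, block-decreasing function on `ℝ^d` that vanishes outside a ball
of radius `R` (so `f` is a nonnegative, compactly supported Lipschitz function in `W^{1,1}`).
Then the centered maximal function `M f` is `K`-Lipschitz (hence lies in `W^{1,1}_loc`, its
weak gradient being its almost everywhere defined classical gradient), `∫ |∇f|` is finite, and
`∫ |∇ M f| ≤ C_d ∫ |∇f|` with `C_d = d (2^(d-1) + 3 (d-1) 2^(2d+2) / ω_d)`, where `ω_d` is
the volume of the unit ball of `ℝ^d`. -/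
theorem result (d : ℕ) (hd : 1 ≤ d) (f : EuclideanSpace ℝ (Fin d) → ℝ) (K : ℝ≥0)
    (hf : LipschitzWith K f) (hBD : IsBlockDecreasing f)
    (R : ℝ) (hR : ∀ x : EuclideanSpace ℝ (Fin d), R ≤ ‖x‖ → f x = 0) :
    LipschitzWith K (centeredMaximal f) ∧
    gradL1 f < ∞ ∧
    gradL1 (centeredMaximal f) ≤
      ((d : ℝ≥0∞) * (2 ^ (d - 1) + 3 * ((d - 1 : ℕ) : ℝ≥0∞) * 2 ^ (2 * d + 2) /
          volume (Metric.ball (0 : EuclideanSpace ℝ (Fin d)) 1))) * gradL1 f := by
  have : Nonempty (Fin d) := ⟨⟨0, hd⟩⟩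
  obtain ⟨h1, h2, h3⟩ := gradient_bound_block hf hBD hR
  refine ⟨h1, h2, ?_⟩
  rw [Fintype.card_fin] at h3
  have e : (2:ℝ≥0∞) ^ (d + 3) * (3 * 2 ^ (d - 1) /
      volume (Metric.ball (0 : EuclideanSpace ℝ (Fin d)) 1)) * ((d - 1 : ℕ) : ℝ≥0∞)
      = 3 * ((d - 1 : ℕ) : ℝ≥0∞) * 2 ^ (2 * d + 2) /
          volume (Metric.ball (0 : EuclideanSpace ℝ (Fin d)) 1) := by
    have e2 : (2:ℝ≥0∞) ^ (2 * d + 2) = 2 ^ (d + 3) * 2 ^ (d - 1) := by
      rw [← pow_add]
      congr 1
      omega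
    rw [e2, div_eq_mul_inv, div_eq_mul_inv]
    ring
  rw [e] at h3
  exact h3

end Vale.Agent.Results.P137.BlockDecreasing
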