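import Mathlib
import Vale.Agent.Lib.P137.Defs
import Vale.Agent.Lib.P137.Main

namespace Vale.Agent.Results.P137.RadialDecreasing

open MeasureTheory
open scoped ENNReal NNReal
open Vale.Agent.Lib.P137

/-- Endpoint gradient bound for the centered Hardy-Littlewood maximal operator on
radially nonincreasing inputs, in every dimension `d ≥ 2`.

Let `f(x) = φ(‖x‖)` on `ℝ^d`, where `φ` is `K`-Lipschitz, nonincreasing on `[0, ∞)` and
vanishes on `[R, ∞)` (so `f` is a nonnegative, compactly supported Lipschitz function in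
`W^{1,1}`). Then the centered maximal function `M f` is `K`-Lipschitz (hence lies in
`W^{1,1}_loc`, its weak gradient being its almost everywhere defined classical gradient),
`∫ |∇f|` is finite, and `∫ |∇ M f| ≤ d 2^(d-1) 3^d ∫ |∇f|`. -/
theorem result (d : ℕ) (hd : 2 ≤ d) (φ : ℝ → ℝ) (K : ℝ≥0) (hφ : LipschitzWith K φ)
    (hanti : AntitoneOn φ (Set.Ici 0)) (R : ℝ) (hR : ∀ t, R ≤ t → φ t = 0) :
    LipschitzWith K (centeredMaximal (fun x : EuclideanSpace ℝ (Fin d) => φ ‖x‖)) ∧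
    ∫⁻ x, ‖fderiv ℝ (fun x : EuclideanSpace ℝ (Fin d) => φ ‖x‖) x‖ₑ < ∞ ∧
    ∫⁻ x, ‖fderiv ℝ (centeredMaximal (fun x : EuclideanSpace ℝ (Fin d) => φ ‖x‖)) x‖ₑ ≤
      ((d * 2 ^ (d - 1) * 3 ^ d : ℕ) : ℝ≥0∞) *
        ∫⁻ x, ‖fderiv ℝ (fun x : EuclideanSpace ℝ (Fin d) => φ ‖x‖) x‖ₑ := by
  obtain ⟨m, rfl⟩ : ∃ m, d = m + 2 := ⟨d - 2, by omega⟩
  exact gradient_bound (E := EuclideanSpace ℝ (Fin (m + 2))) m finrank_euclideanSpace_fin
    hφ hanti hR

end Vale.Agent.Results.P137.RadialDecreasing
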